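import Mathlib
import Crest.Prelude.Def_OrderedMatrix

/-!
Construction for result 47 (ordered binary matrix removal has an exponential lower bound).

The pattern has a 64 × 64 marker part and a 2 × 2 core part.  The host matrix consists of blown-up
markers (one for every constraint) and a chain of prefix-comparison matrices.
-/

set_option autoImplicit false

namespace Crest.Agent.R47

/-- The pattern, as a predicate on natural-number coordinates. -/
def Hp (i j : ℕ) : Prop :=
  (i < 64 ∧ j < 64 ∧ (i = j ∨ i = 63 ∨ j = 63)) ∨ (i = 64 ∧ j = 0) ∨ (i = 65 ∧ j = 1) ∨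
    (i = 0 ∧ j = 64) ∨ (i = 1 ∧ j = 65) ∨ (i = 65 ∧ j = 64)

instance (i j : ℕ) : Decidable (Hp i j) := by unfold Hp; infer_instance

/-- The pattern. -/
def H (i j : Fin 66) : Bool := decide (Hp i j)

/-- Prefix of length `j` of a `(g+1)`-bit label. -/
def P (g j l : ℕ) : ℕ := l / 2 ^ (g + 1 - j)

lemma P_zero {g l : ℕ} (hl : l < 2 ^ (g + 1)) : P g 0 l = 0 := by
  unfold P; simpa using Nat.div_eq_of_lt hl

lemma P_succ {g j : ℕ} (hj : j ≤ g) (l : ℕ) : P g (j + 1) l / 2 = P g j l := by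
  unfold P
  have : g + 1 - j = (g + 1 - (j + 1)) + 1 := by omega
  rw [this, pow_succ, Nat.div_div_eq_div_mul]

lemma P_mono (g j : ℕ) {l l' : ℕ} (h : l ≤ l') : P g j l ≤ P g j l' :=
  Nat.div_le_div_right h

lemma P_top (g l : ℕ) : P g g l = l / 2 := by
  unfold P; simp

/-- The level of a type. -/
def lev (g t : ℕ) : ℕ := if t ≤ g then t else 2 * g + 1 - t

/-- The relevant bit of a label for a type. -/
def bit (g t l : ℕ) : ℕ := P g (lev g t) l % 2

/-- The comparison matrix of type `t`. -/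
def M (g t l l' : ℕ) : Prop :=
  if t ≤ g then P g (lev g t) l ≤ P g (lev g t) l' else P g (lev g t) l < P g (lev g t) l'

def Hi (g k t l : ℕ) : Prop :=
  if k / 2 ≤ 2 * g then t = k / 2 + 1 ∧ (t ≤ g → bit g t l = k % 2) else t = 2 * g + 1

def LoR (g k t l : ℕ) : Prop :=
  if k / 2 ≤ 2 * g then t = k / 2 ∧ (g < t → bit g t l = k % 2)
  else t ≠ 2 * g + 1 ∧ t % 2 = k % 2

def LoC (g k t l : ℕ) : Prop :=
  if k / 2 ≤ 2 * g then t = k / 2 ∧ (g < t → bit g t l = k % 2)
  else t ≠ 2 * g + 1 ∧ t % 2 ≠ k % 2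

/-- Blocks: marker blocks and core types. -/
abbrev Blk (g : ℕ) : Type := (Fin (4 * g + 4) × Fin 64) ⊕ Fin (2 * g + 2)

/-- Row / column indices of the abstract host. -/
abbrev Idx (g : ℕ) : Type := Blk g × Fin (2 ^ (g + 1))

/-- The abstract host matrix. -/
def A (g : ℕ) : Idx g → Idx g → Prop
  | (Sum.inl (k, i), _), (Sum.inl (k', j), _) => k = k' ∧ (i = j ∨ (i : ℕ) = 63 ∨ (j : ℕ) = 63)
  | (Sum.inr t, l), (Sum.inl (k, j), _) =>
      ((j : ℕ) = 0 ∧ Hi g k t l) ∨ ((j : ℕ) = 1 ∧ LoR g k t l)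
  | (Sum.inl (k, i), _), (Sum.inr t, l) =>
      ((i : ℕ) = 0 ∧ LoC g k t l) ∨ ((i : ℕ) = 1 ∧ Hi g k t l)
  | (Sum.inr t, l), (Sum.inr t', l') => t = t' ∧ M g t l l'

/-- Sorting key for core indices of rank `r`. -/
def ckey (g r l : ℕ) : ℕ × ℕ × ℕ :=
  if r = 0 then (1, l, 0) else if r = 2 * g + 1 then (3, l, 0) else (2, l, r)

/-- Sorting key of rows. -/
def keyR (g : ℕ) : Idx g → ℕ × ℕ × ℕ
  | (Sum.inl (k, i), z) => (0, 64 * k + i, z)
  | (Sum.inr t, l) => ckey g (2 * g + 1 - t) l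

/-- Sorting key of columns. -/
def keyC (g : ℕ) : Idx g → ℕ × ℕ × ℕ
  | (Sum.inl (k, i), z) => (0, 64 * k + i, z)
  | (Sum.inr t, l) => ckey g t l

/-- Lexicographic order on keys. -/
def klt (a b : ℕ × ℕ × ℕ) : Prop :=
  a.1 < b.1 ∨ (a.1 = b.1 ∧ (a.2.1 < b.2.1 ∨ (a.2.1 = b.2.1 ∧ a.2.2 < b.2.2)))

lemma ckey_inj {g r r' l l' : ℕ}
    (h : ckey g r l = ckey g r' l') : r = r' ∧ l = l' := by
  unfold ckey at h
  split_ifs at h <;> simp at h <;> omega

lemma ckey_fst (g r l : ℕ) : 1 ≤ (ckey g r l).1 := by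
  unfold ckey; split_ifs <;> simp

lemma keyR_inj (g : ℕ) : Function.Injective (keyR g) := by
  rintro ⟨(⟨k, i⟩ | t), z⟩ ⟨(⟨k', i'⟩ | t'), z'⟩ h
  · simp only [keyR, Prod.mk.injEq, true_and] at h
    have h1 : (k : ℕ) = k' := by omega
    have h2 : (i : ℕ) = i' := by omega
    rw [Fin.ext h1, Fin.ext h2, Fin.ext h.2]
  · have := ckey_fst g (2 * g + 1 - t') z'
    simp only [keyR] at h
    rw [← h] at this; simp at this
  · have := ckey_fst g (2 * g + 1 - t) z
    simp only [keyR] at h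
    rw [h] at this; simp at this
  · simp only [keyR] at h
    have := ckey_inj h
    have h1 : (t : ℕ) = t' := by omega
    rw [Fin.ext h1, Fin.ext this.2]

lemma keyC_inj (g : ℕ) : Function.Injective (keyC g) := by
  rintro ⟨(⟨k, i⟩ | t), z⟩ ⟨(⟨k', i'⟩ | t'), z'⟩ h
  · simp only [keyC, Prod.mk.injEq, true_and] at h
    have h1 : (k : ℕ) = k' := by omega
    have h2 : (i : ℕ) = i' := by omega
    rw [Fin.ext h1, Fin.ext h2, Fin.ext h.2]
  · have := ckey_fst g t' z'
    simp only [keyC] at h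
    rw [← h] at this; simp at this
  · have := ckey_fst g t z
    simp only [keyC] at h
    rw [h] at this; simp at this
  · simp only [keyC] at h
    have := ckey_inj h
    rw [Fin.ext this.1, Fin.ext this.2]

/-- A finite type with an injective key embeds in `Fin n` compatibly with the key order. -/
lemma exists_pos {α : Type} [Fintype α] (key : α → ℕ × ℕ × ℕ) (hk : Function.Injective key)
    {n : ℕ} (hn : Fintype.card α ≤ n) :
    ∃ pos : α → Fin n, Function.Injective pos ∧ ∀ a b, pos a < pos b ↔ klt (key a) (key b) := by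
  let key' : α → ℕ ×ₗ (ℕ ×ₗ ℕ) := fun a => toLex ((key a).1, toLex (key a).2)
  have hk' : Function.Injective key' := by
    intro a b h
    apply hk
    have h1 := congrArg (fun x => (ofLex x).1) h
    have h2 := congrArg (fun x => ofLex (ofLex x).2) h
    simp only [key', ofLex_toLex] at h1 h2
    exact Prod.ext h1 h2
  letI : LinearOrder α := LinearOrder.lift' key' hk'
  let e := monoEquivOfFin α rfl
  refine ⟨fun a => Fin.castLE hn (e.symm a), ?_, ?_⟩
  · intro a b h
    exact e.symm.injective (Fin.castLE_injective hn h)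
  · intro a b
    have : Fin.castLE hn (e.symm a) < Fin.castLE hn (e.symm b) ↔ e.symm a < e.symm b := by
      simp [Fin.lt_def]
    rw [this, e.symm.lt_iff_lt]
    change key' a < key' b ↔ _
    simp only [key', Prod.Lex.toLex_lt_toLex, klt]

end Crest.Agent.R47
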