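import Crest.Agent.R47.Defs

/-!
Farness: any matrix without a copy differs from the host in at least `N²` cells.
-/

set_option autoImplicit false

namespace Crest.Agent.R47

/-- Blocks whose representative is chosen independently of the label. -/
def free (g : ℕ) : Blk g → Prop
  | Sum.inl _ => True
  | Sum.inr t => (t : ℕ) = 0 ∨ (t : ℕ) = 2 * g + 1

instance (g : ℕ) (b : Blk g) : Decidable (free g b) := by
  cases b <;> unfold free <;> infer_instance

/-- Selected row in a block. -/
def rowSel (g : ℕ) (a b : Fin (2 ^ (g + 1))) (ρ : Blk g) : Idx g :=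
  (ρ, if free g ρ then a + b else a)

/-- Selected column in a block. -/
def colSel (g : ℕ) (a b : Fin (2 ^ (g + 1))) (γ : Blk g) : Idx g :=
  (γ, if free g γ then b else a)

lemma free_inl {g : ℕ} (x : Fin (4 * g + 4) × Fin 64) : free g (Sum.inl x) := trivial

lemma rowSel_mid {g : ℕ} (a b : Fin (2 ^ (g + 1))) (t : Fin (2 * g + 2)) (h0 : (t : ℕ) ≠ 0)
    (h1 : (t : ℕ) ≠ 2 * g + 1) : rowSel g a b (Sum.inr t) = (Sum.inr t, a) := by
  have : ¬ free g (Sum.inr t) := by simp only [free]; omega
  simp only [rowSel, this, if_false]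

lemma colSel_mid {g : ℕ} (a b : Fin (2 ^ (g + 1))) (t : Fin (2 * g + 2)) (h0 : (t : ℕ) ≠ 0)
    (h1 : (t : ℕ) ≠ 2 * g + 1) : colSel g a b (Sum.inr t) = (Sum.inr t, a) := by
  have : ¬ free g (Sum.inr t) := by simp only [free]; omega
  simp only [colSel, this, if_false]

lemma ckey_lt_of {g r r' l l' : ℕ} (hr : r < r') (hr' : r' ≤ 2 * g + 1)
    (h : r = 0 ∨ r' = 2 * g + 1 ∨ l = l') : klt (ckey g r l) (ckey g r' l') := by
  unfold klt ckey
  split_ifs <;> simp <;> omega

lemma sel_inj {g : ℕ} {a b a' b' : Fin (2 ^ (g + 1))} {ρ γ ρ' γ' : Blk g}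
    (hf : free g ρ ∨ free g γ) (h1 : rowSel g a b ρ = rowSel g a' b' ρ')
    (h2 : colSel g a b γ = colSel g a' b' γ') : a = a' ∧ b = b' := by
  simp only [rowSel, colSel, Prod.mk.injEq] at h1 h2
  obtain ⟨rfl, h1⟩ := h1
  obtain ⟨rfl, h2⟩ := h2
  by_cases hρ : free g ρ <;> by_cases hγ : free g γ <;>
    simp only [hρ, hγ, if_true, if_false] at h1 h2
  · subst h2; exact ⟨add_right_cancel h1, rfl⟩
  · subst h2; exact ⟨rfl, add_left_cancel h1⟩
  · exact ⟨h1, h2⟩
  · tauto

/-- No abstract copy in `B`. -/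
def NoCopy (g : ℕ) (B : Idx g → Idx g → Prop) : Prop :=
  ∀ φ ψ : Fin 66 → Idx g, (∀ i j, i < j → klt (keyR g (φ i)) (keyR g (φ j))) →
    (∀ i j, i < j → klt (keyC g (ψ i)) (keyC g (ψ j))) →
    ¬ ∀ i j, (B (φ i) (ψ j) ↔ Hp i j)

/-- The selected blocks of an intended copy. -/
def blkSeq (g : ℕ) (k : Fin (4 * g + 4)) (t1 t2 : Fin (2 * g + 2)) (i : Fin 66) : Blk g :=
  if h : (i : ℕ) < 64 then Sum.inl (k, ⟨i, h⟩) else if (i : ℕ) = 64 then Sum.inr t1 else Sum.inr t2

lemma intended {g : ℕ} {B : Idx g → Idx g → Prop} (hB : NoCopy g B) {a b : Fin (2 ^ (g + 1))}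
    (hun : ∀ ρ γ, free g ρ ∨ free g γ →
      (B (rowSel g a b ρ) (colSel g a b γ) ↔ A g (rowSel g a b ρ) (colSel g a b γ)))
    (k : Fin (4 * g + 4)) (t1 t2 s1 s2 : Fin (2 * g + 2))
    (h1 : Hi g k t1 (rowSel g a b (Sum.inr t1)).2) (h1' : ¬ LoR g k t1 (rowSel g a b (Sum.inr t1)).2)
    (h2 : LoR g k t2 (rowSel g a b (Sum.inr t2)).2) (h2' : ¬ Hi g k t2 (rowSel g a b (Sum.inr t2)).2)
    (h3 : LoC g k s1 (colSel g a b (Sum.inr s1)).2) (h3' : ¬ Hi g k s1 (colSel g a b (Sum.inr s1)).2)
    (h4 : Hi g k s2 (colSel g a b (Sum.inr s2)).2) (h4' : ¬ LoC g k s2 (colSel g a b (Sum.inr s2)).2)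
    (hr : klt (keyR g (rowSel g a b (Sum.inr t1))) (keyR g (rowSel g a b (Sum.inr t2))))
    (hc : klt (keyC g (colSel g a b (Sum.inr s1))) (keyC g (colSel g a b (Sum.inr s2))))
    (e11 : ¬ B (rowSel g a b (Sum.inr t1)) (colSel g a b (Sum.inr s1)))
    (e12 : ¬ B (rowSel g a b (Sum.inr t1)) (colSel g a b (Sum.inr s2)))
    (e21 : B (rowSel g a b (Sum.inr t2)) (colSel g a b (Sum.inr s1)))
    (e22 : ¬ B (rowSel g a b (Sum.inr t2)) (colSel g a b (Sum.inr s2))) : False := by
  apply hB (fun i => rowSel g a b (blkSeq g k t1 t2 i)) (fun i => colSel g a b (blkSeq g k s1 s2 i))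
  · intro i j hij
    have hij' : (i : ℕ) < j := hij
    have hj := j.2
    unfold blkSeq
    split_ifs with c1 c2 c3 c4 c5 c6 c7 c8
    · simp only [rowSel, keyR, klt, true_and]; omega
    · have := ckey_fst g (2 * g + 1 - t1) (rowSel g a b (Sum.inr t1)).2
      simp only [rowSel, keyR, klt] at this ⊢; omega
    · have := ckey_fst g (2 * g + 1 - t2) (rowSel g a b (Sum.inr t2)).2
      simp only [rowSel, keyR, klt] at this ⊢; omega
    all_goals omega
  · intro i j hij
    have hij' : (i : ℕ) < j := hij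
    have hj := j.2
    unfold blkSeq
    split_ifs with c1 c2 c3 c4 c5 c6 c7 c8
    · simp only [colSel, keyC, klt, true_and]; omega
    · have := ckey_fst g s1 (colSel g a b (Sum.inr s1)).2
      simp only [colSel, keyC, klt] at this ⊢; omega
    · have := ckey_fst g s2 (colSel g a b (Sum.inr s2)).2
      simp only [colSel, keyC, klt] at this ⊢; omega
    all_goals omega
  · intro i j
    have hi := i.2
    have hj := j.2
    unfold blkSeq
    split_ifs with c1 c2 c3 c4 c5 c6 c7 c8
    · rw [hun _ _ (Or.inl (free_inl _))]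
      simp only [rowSel, colSel, A, Hp, Fin.mk.injEq, true_and]
      omega
    · rw [hun _ _ (Or.inl (free_inl _))]
      simp only [colSel] at h3 h3'
      simp only [rowSel, colSel, A, Hp, h3, h3', and_true, and_false, or_false]
      omega
    · rw [hun _ _ (Or.inl (free_inl _))]
      simp only [colSel] at h4 h4'
      simp only [rowSel, colSel, A, Hp, h4, h4', and_true, and_false, false_or]
      omega
    · rw [hun _ _ (Or.inr (free_inl _))]
      simp only [rowSel] at h1 h1'
      simp only [rowSel, colSel, A, Hp, h1, h1', and_true, and_false, or_false]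
      omega
    · simp only [e11, Hp, false_iff]; omega
    · simp only [e12, Hp, false_iff]; omega
    · rw [hun _ _ (Or.inr (free_inl _))]
      simp only [rowSel] at h2 h2'
      simp only [rowSel, colSel, A, Hp, h2, h2', and_true, and_false, false_or]
      omega
    · simp only [e21, Hp, true_iff]; omega
    · simp only [e22, Hp, false_iff]; omega

lemma cross_zero {g : ℕ} {B : Idx g → Idx g → Prop} (hB : NoCopy g B) {a b : Fin (2 ^ (g + 1))}
    (hun : ∀ ρ γ, free g ρ ∨ free g γ →
      (B (rowSel g a b ρ) (colSel g a b γ) ↔ A g (rowSel g a b ρ) (colSel g a b γ)))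
    (t s : Fin (2 * g + 2)) (hts : (t : ℕ) % 2 ≠ s % 2) :
    ¬ B (rowSel g a b (Sum.inr t)) (colSel g a b (Sum.inr s)) := by
  have hne : t ≠ s := fun h => hts (by rw [h])
  by_cases hf : free g (Sum.inr t) ∨ free g (Sum.inr s)
  · rw [hun _ _ hf]
    simp only [rowSel, colSel, A]
    exact fun h => hne h.1
  intro hB1
  simp only [free, not_or] at hf
  have ht := t.2
  have hs := s.2
  let top : Fin (2 * g + 2) := ⟨2 * g + 1, by omega⟩
  have hft : free g (Sum.inr top) := Or.inr rfl
  have htv : (top : ℕ) = 2 * g + 1 := rfl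
  let k : Fin (4 * g + 4) := ⟨4 * g + 2 + t % 2, by omega⟩
  have hkv : (k : ℕ) = 4 * g + 2 + t % 2 := rfl
  have hk : ¬ (k : ℕ) / 2 ≤ 2 * g := by omega
  refine intended hB hun k top t s top ?_ ?_ ?_ ?_ ?_ ?_ ?_ ?_ ?_ ?_ ?_ ?_ hB1 ?_
  · simp only [Hi, hk, if_false]; omega
  · simp only [LoR, hk, if_false]; omega
  · simp only [LoR, hk, if_false]; omega
  · simp only [Hi, hk, if_false]; omega
  · simp only [LoC, hk, if_false]; omega
  · simp only [Hi, hk, if_false]; omega
  · simp only [Hi, hk, if_false]; omega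
  · simp only [LoC, hk, if_false]; omega
  · simp only [rowSel, keyR, klt, ckey]
    split_ifs <;> simp <;> omega
  · simp only [colSel, keyC, klt, ckey]
    split_ifs <;> simp <;> omega
  · rw [hun _ _ (Or.inl hft)]
    simp only [rowSel, colSel, A]
    intro h
    have := congrArg Fin.val h.1
    omega
  · rw [hun _ _ (Or.inl hft)]
    simp only [rowSel, colSel, A, M]
    have e : lev g top = 0 := by unfold lev; split_ifs <;> omega
    rw [e, if_neg (by omega), P_zero (Fin.is_lt _), P_zero (Fin.is_lt _)]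
    omega
  · rw [hun _ _ (Or.inr hft)]
    simp only [rowSel, colSel, A]
    intro h
    have := congrArg Fin.val h.1
    omega

lemma exists_modified {g : ℕ} {B : Idx g → Idx g → Prop} (hB : NoCopy g B)
    (a b : Fin (2 ^ (g + 1))) :
    ∃ ρ γ, (free g ρ ∨ free g γ) ∧
      ¬ (B (rowSel g a b ρ) (colSel g a b γ) ↔ A g (rowSel g a b ρ) (colSel g a b γ)) := by
  by_contra hcon
  have hun : ∀ ρ γ, free g ρ ∨ free g γ →
      (B (rowSel g a b ρ) (colSel g a b γ) ↔ A g (rowSel g a b ρ) (colSel g a b γ)) := by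
    intro ρ γ hf
    by_contra hh
    exact hcon ⟨ρ, γ, hf, hh⟩
  have key : ∀ t (ht : t < 2 * g + 2),
      B (rowSel g a b (Sum.inr ⟨t, ht⟩)) (colSel g a b (Sum.inr ⟨t, ht⟩)) := by
    intro t
    induction t with
    | zero =>
      intro ht
      have hf : free g (Sum.inr ⟨0, ht⟩) := Or.inl rfl
      rw [hun _ _ (Or.inl hf)]
      simp only [rowSel, colSel, A, M]
      have e : lev g 0 = 0 := by unfold lev; split_ifs <;> omega
      rw [e, if_pos (by omega), P_zero (Fin.is_lt _), P_zero (Fin.is_lt _)]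
      simp
    | succ t ih =>
      intro ht
      have ih := ih (by omega)
      by_contra hn
      -- the bit used at this step
      obtain ⟨β, hβd⟩ : ∃ β : ℕ, β = if t < g then bit g (t + 1) a else bit g t a := ⟨_, rfl⟩
      have hβ : β < 2 := by simp only [hβd, bit]; split_ifs <;> omega
      obtain ⟨k, hkv⟩ : ∃ k : Fin (4 * g + 4), (k : ℕ) = 2 * t + β := ⟨⟨2 * t + β, by omega⟩, rfl⟩
      have hk : t ≤ 2 * g := by omega
      have hk2 : (k : ℕ) / 2 = t := by omega
      have hk3 : (k : ℕ) % 2 = β := by omega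
      refine intended hB hun k ⟨t + 1, ht⟩ ⟨t, by omega⟩ ⟨t, by omega⟩ ⟨t + 1, ht⟩
        ?_ ?_ ?_ ?_ ?_ ?_ ?_ ?_ ?_ ?_ ?_ hn ih ?_
      · simp only [Hi, hk, if_true, hk2, hk3, true_and]
        intro h
        rw [rowSel_mid _ _ _ (by simp) (by simp only; omega), hβd, if_pos (by omega)]
      · simp only [LoR, hk, if_true, hk2]; omega
      · simp only [LoR, hk, if_true, hk2, hk3, true_and]
        intro h
        rw [rowSel_mid _ _ _ (by simp only; omega) (by simp only; omega), hβd, if_neg (by omega)]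
      · simp only [Hi, hk, if_true, hk2]; omega
      · simp only [LoC, hk, if_true, hk2, hk3, true_and]
        intro h
        rw [colSel_mid _ _ _ (by simp only; omega) (by simp only; omega), hβd, if_neg (by omega)]
      · simp only [Hi, hk, if_true, hk2]; omega
      · simp only [Hi, hk, if_true, hk2, hk3, true_and]
        intro h
        rw [colSel_mid _ _ _ (by simp) (by simp only; omega), hβd, if_pos (by omega)]
      · simp only [LoC, hk, if_true, hk2]; omega
      · by_cases h0 : t = 0
        · exact ckey_lt_of (by simp only; omega) (by simp only; omega) (by simp only; omega)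
        by_cases h1 : t = 2 * g
        · exact ckey_lt_of (by simp only; omega) (by simp only; omega) (by simp only; omega)
        rw [rowSel_mid _ _ _ (by simp) (by simp only; omega),
          rowSel_mid _ _ _ (by simp only; omega) (by simp only; omega)]
        exact ckey_lt_of (by simp only; omega) (by simp only; omega) (by simp)
      · by_cases h0 : t = 0
        · exact ckey_lt_of (by simp only; omega) (by simp only; omega) (by simp only; omega)
        by_cases h1 : t = 2 * g
        · exact ckey_lt_of (by simp only; omega) (by simp only; omega) (by simp only; omega)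
        rw [colSel_mid _ _ _ (by simp only; omega) (by simp only; omega),
          colSel_mid _ _ _ (by simp) (by simp only; omega)]
        exact ckey_lt_of (by simp only; omega) (by simp only; omega) (by simp)
      · exact cross_zero hB hun _ _ (by simp only; omega)
      · exact cross_zero hB hun _ _ (by simp only; omega)
  have h1 := key (2 * g + 1) (by omega)
  have hf : free g (Sum.inr ⟨2 * g + 1, by omega⟩) := Or.inr rfl
  rw [hun _ _ (Or.inl hf)] at h1
  simp only [rowSel, colSel, A, M] at h1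
  have e : lev g (2 * g + 1) = 0 := by unfold lev; split_ifs <;> omega
  rw [e, if_neg (by omega), P_zero (Fin.is_lt _), P_zero (Fin.is_lt _)] at h1
  omega

end Crest.Agent.R47
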