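import Crest.Agent.R47.Struct
import Crest.Agent.R47.Far

/-!
Transfer of the abstract construction to `Fin n`.
-/

set_option autoImplicit false

namespace Crest.Agent.R47

open Crest.CombinatoricsR.OrderedMatrix

open Classical in
/-- The host on `Fin n` obtained from position maps (zero outside the image). -/
noncomputable def host {g n : ℕ} (pR pC : Idx g → Fin n) (r c : Fin n) : Bool :=
  decide (∃ x y, pR x = r ∧ pC y = c ∧ A g x y)

lemma host_apply {g n : ℕ} {pR pC : Idx g → Fin n} (hR : Function.Injective pR)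
    (hC : Function.Injective pC) (x y : Idx g) : host pR pC (pR x) (pC y) = true ↔ A g x y := by
  simp only [host, decide_eq_true_eq]
  constructor
  · rintro ⟨x', y', h1, h2, h3⟩
    rw [hR h1, hC h2] at h3
    exact h3
  · intro h
    exact ⟨x, y, rfl, rfl, h⟩

lemma far {g n : ℕ} {pR pC : Idx g → Fin n} (hR : Function.Injective pR)
    (hC : Function.Injective pC)
    (hR' : ∀ a b, pR a < pR b ↔ klt (keyR g a) (keyR g b))
    (hC' : ∀ a b, pC a < pC b ↔ klt (keyC g a) (keyC g b))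
    (B : Fin n → Fin n → Bool) (hB : orderedCopyCount H B = 0) :
    2 ^ (g + 1) * 2 ^ (g + 1) ≤ (Finset.univ.filter (fun rc : Fin n × Fin n =>
      host pR pC rc.1 rc.2 ≠ B rc.1 rc.2)).card := by
  have hno : NoCopy g (fun x y => B (pR x) (pC y) = true) := by
    intro φ ψ h1 h2 h3
    unfold orderedCopyCount at hB
    rw [Fintype.card_eq_zero_iff] at hB
    refine hB.false ⟨(fun i => pR (φ i), fun j => pC (ψ j)), ?_, ?_, ?_⟩
    · intro i j hij
      exact (hR' _ _).2 (h1 i j hij)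
    · intro i j hij
      exact (hC' _ _).2 (h2 i j hij)
    · intro i j
      have := h3 i j
      simp only [H]
      by_cases hp : Hp i j
      · simp only [hp, decide_true]; exact this.2 hp
      · simp only [hp, decide_false]
        simpa using fun hh => hp (this.1 hh)
  choose ρ γ hf hmod using fun ω : Fin (2 ^ (g + 1)) × Fin (2 ^ (g + 1)) =>
    exists_modified hno ω.1 ω.2
  have hcard : (Finset.univ : Finset (Fin (2 ^ (g + 1)) × Fin (2 ^ (g + 1)))).card =
      2 ^ (g + 1) * 2 ^ (g + 1) := by simp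
  rw [← hcard]
  refine Finset.card_le_card_of_injOn
    (fun ω => (pR (rowSel g ω.1 ω.2 (ρ ω)), pC (colSel g ω.1 ω.2 (γ ω)))) ?_ ?_
  · intro ω _
    simp only [Finset.coe_filter, Finset.mem_univ, true_and, Set.mem_ofPred_eq]
    intro he
    apply hmod ω
    rw [← host_apply hR hC, he]
  · intro ω _ ω' _ h
    simp only [Prod.mk.injEq] at h
    have := sel_inj (hf ω) (hR h.1) (hC h.2)
    exact Prod.ext this.1 this.2

lemma Hp_row (i : ℕ) (hi : i < 66) : ∃ j, j < 66 ∧ Hp i j := by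
  rcases Nat.lt_or_ge i 64 with h | h
  · exact ⟨i, hi, by unfold Hp; omega⟩
  · exact ⟨i - 64, by omega, by unfold Hp; omega⟩

lemma Hp_col (j : ℕ) (hj : j < 66) : ∃ i, i < 66 ∧ Hp i j := by
  rcases Nat.lt_or_ge j 64 with h | h
  · exact ⟨j, hj, by unfold Hp; omega⟩
  · exact ⟨j - 64, by omega, by unfold Hp; omega⟩

lemma copy_core {g n : ℕ} {pR pC : Idx g → Fin n} (hR : Function.Injective pR)
    (hC : Function.Injective pC)
    (hR' : ∀ a b, pR a < pR b ↔ klt (keyR g a) (keyR g b))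
    (hC' : ∀ a b, pC a < pC b ↔ klt (keyC g a) (keyC g b))
    (R C : Fin 66 → Fin n) (h1 : StrictMono R) (h2 : StrictMono C)
    (h3 : ∀ i j, host pR pC (R i) (C j) = H i j) :
    ∃ l1 l2 m1 m2 : Fin (2 ^ (g + 1)),
      R 64 = pR (Sum.inr ⟨g + 1, by omega⟩, l1) ∧ R 65 = pR (Sum.inr ⟨g, by omega⟩, l2) ∧
      C 64 = pC (Sum.inr ⟨g, by omega⟩, m1) ∧ C 65 = pC (Sum.inr ⟨g + 1, by omega⟩, m2) ∧
      (l1 : ℕ) / 2 = m1 / 2 ∧ (l2 : ℕ) / 2 = m1 / 2 ∧ (m2 : ℕ) / 2 = m1 / 2 := by
  have hrow : ∀ i (hi : i < 66), ∃ x, pR x = R ⟨i, hi⟩ := by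
    intro i hi
    obtain ⟨j, hj, hij⟩ := Hp_row i hi
    have := h3 ⟨i, hi⟩ ⟨j, hj⟩
    simp only [H, hij, decide_true, host, decide_eq_true_eq] at this
    obtain ⟨x, y, hx, -, -⟩ := this
    exact ⟨x, hx⟩
  have hcol : ∀ j (hj : j < 66), ∃ y, pC y = C ⟨j, hj⟩ := by
    intro j hj
    obtain ⟨i, hi, hij⟩ := Hp_col j hj
    have := h3 ⟨i, hi⟩ ⟨j, hj⟩
    simp only [H, hij, decide_true, host, decide_eq_true_eq] at this
    obtain ⟨x, y, -, hy, -⟩ := this
    exact ⟨y, hy⟩
  have : Nonempty (Idx g) := ⟨(Sum.inr ⟨0, by omega⟩, 0)⟩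
  choose! φ hφ using hrow
  choose! ψ hψ using hcol
  have hc : IsCopy g φ ψ := by
    refine ⟨?_, ?_, ?_⟩
    · intro i j hij hj
      rw [← hR', hφ i (by omega), hφ j hj]
      exact h1 hij
    · intro i j hij hj
      rw [← hC', hψ i (by omega), hψ j hj]
      exact h2 hij
    · intro i j hi hj
      rw [← host_apply hR hC, hφ i hi, hψ j hj, h3]
      simp [H]
  obtain ⟨l1, l2, m1, m2, e1, e2, e3, e4, e5⟩ := hc.core
  refine ⟨l1, l2, m1, m2, ?_, ?_, ?_, ?_, e5⟩
  · rw [← e1]; exact (hφ 64 (by omega)).symm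
  · rw [← e2]; exact (hφ 65 (by omega)).symm
  · rw [← e3]; exact (hψ 64 (by omega)).symm
  · rw [← e4]; exact (hψ 65 (by omega)).symm

lemma count_le {g n : ℕ} {pR pC : Idx g → Fin n} (hR : Function.Injective pR)
    (hC : Function.Injective pC)
    (hR' : ∀ a b, pR a < pR b ↔ klt (keyR g a) (keyR g b))
    (hC' : ∀ a b, pC a < pC b ↔ klt (keyC g a) (keyC g b)) :
    orderedCopyCount H (host pR pC) ≤ n ^ 64 * n ^ 64 * 2 ^ (g + 1) * 8 := by
  unfold orderedCopyCount
  choose l1 l2 m1 m2 e1 e2 e3 e4 e5 e6 e7 using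
    fun c : {rc : (Fin 66 → Fin n) × (Fin 66 → Fin n) //
      StrictMono rc.1 ∧ StrictMono rc.2 ∧ ∀ i j : Fin 66, host pR pC (rc.1 i) (rc.2 j) = H i j} =>
    copy_core hR hC hR' hC' c.1.1 c.1.2 c.2.1 c.2.2.1 c.2.2.2
  have hcard : Fintype.card ((Fin 64 → Fin n) × (Fin 64 → Fin n) × Fin (2 ^ (g + 1)) ×
      Fin 2 × Fin 2 × Fin 2) = n ^ 64 * n ^ 64 * 2 ^ (g + 1) * 8 := by
    simp only [Fintype.card_prod, Fintype.card_pi, Fintype.card_fin, Finset.prod_const,
      Finset.card_univ]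
    ring
  rw [← hcard]
  refine Fintype.card_le_of_injective (fun c =>
    (fun i => c.1.1 (Fin.castLE (by omega) i), fun i => c.1.2 (Fin.castLE (by omega) i), m1 c,
      ⟨l1 c % 2, by omega⟩, ⟨l2 c % 2, by omega⟩, ⟨m2 c % 2, by omega⟩)) ?_
  intro c c' h
  simp only [Prod.mk.injEq, Fin.mk.injEq] at h
  obtain ⟨h1, h2, h3, h4, h5, h6⟩ := h
  have h3' : (m1 c : ℕ) = m1 c' := by rw [h3]
  have a1 : l1 c = l1 c' := Fin.ext (by have := e5 c; have := e5 c'; omega)
  have a2 : l2 c = l2 c' := Fin.ext (by have := e6 c; have := e6 c'; omega)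
  have a3 : m2 c = m2 c' := Fin.ext (by have := e7 c; have := e7 c'; omega)
  apply Subtype.ext
  apply Prod.ext
  · funext i
    rcases Nat.lt_or_ge i 64 with hi | hi
    · exact congrFun h1 ⟨i, hi⟩
    · have : i = 64 ∨ i = 65 := by
        have := i.2
        rcases Nat.lt_or_ge i 65 with h' | h'
        · left; exact Fin.ext (by simp; omega)
        · right; exact Fin.ext (by simp; omega)
      rcases this with rfl | rfl
      · rw [e1, e1, a1]
      · rw [e2, e2, a2]
  · funext i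
    rcases Nat.lt_or_ge i 64 with hi | hi
    · exact congrFun h2 ⟨i, hi⟩
    · have : i = 64 ∨ i = 65 := by
        have := i.2
        rcases Nat.lt_or_ge i 65 with h' | h'
        · left; exact Fin.ext (by simp; omega)
        · right; exact Fin.ext (by simp; omega)
      rcases this with rfl | rfl
      · rw [e3, e3, h3]
      · rw [e4, e4, a3]

lemma card_idx_le (g : ℕ) : Fintype.card (Idx g) ≤ (386 * (g + 1) + 2) * 2 ^ (g + 1) := by
  simp only [Fintype.card_prod, Fintype.card_sum, Fintype.card_fin]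
  exact Nat.mul_le_mul_right _ (by omega)

end Crest.Agent.R47
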