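import Crest.Agent.R47.Defs

/-!
Every copy of the pattern in the abstract host is a copy through the final constraint.
-/

set_option autoImplicit false

namespace Crest.Agent.R47

lemma M_mono_right {g t l l1 l2 : ℕ} (h : l1 ≤ l2) (hM : M g t l l1) : M g t l l2 := by
  unfold M at *
  have := P_mono g (lev g t) h
  split_ifs at hM ⊢ <;> omega

lemma M_mono_left {g t l l1 l2 : ℕ} (h : l1 ≤ l2) (hM : M g t l2 l) : M g t l1 l := by
  unfold M at *
  have := P_mono g (lev g t) h
  split_ifs at hM ⊢ <;> omega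

lemma ckey_lt_same {g r l l' : ℕ} (h : klt (ckey g r l) (ckey g r l')) : l ≤ l' := by
  unfold klt ckey at h
  split_ifs at h <;> simp at h <;> omega

/-- Class of an index (16 classes). -/
def cls (g : ℕ) : Idx g → ℕ
  | (Sum.inl (k, j), _) => 8 + 4 * (k % 2) + 2 * (if k / 2 ≤ 2 * g then 1 else 0) + j % 2
  | (Sum.inr t, l) => bit g t l

lemma cls_lt (g : ℕ) (x : Idx g) : cls g x < 16 := by
  rcases x with ⟨(⟨k, i⟩ | t), z⟩
  · simp only [cls]; split_ifs <;> omega
  · simp only [cls, bit]; omega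

/-- Two columns of the same class adjacent to one core row are comparable. -/
lemma col_dom {g : ℕ} {t : Fin (2 * g + 2)} {l : Fin (2 ^ (g + 1))} {c c' : Idx g}
    (hc : A g (Sum.inr t, l) c) (hc' : A g (Sum.inr t, l) c') (hcl : cls g c = cls g c')
    (hlt : klt (keyC g c) (keyC g c')) (r : Idx g) (hr : A g r c) : A g r c' := by
  rcases c with ⟨(⟨k, j⟩ | s), z⟩ <;> rcases c' with ⟨(⟨k', j'⟩ | s'), z'⟩
  · have hkj : k = k' ∧ j = j' := by
      simp only [A, Hi, LoR, cls] at hc hc' hcl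
      have := k.2
      have := k'.2
      refine ⟨Fin.ext ?_, Fin.ext ?_⟩ <;> split_ifs at hc hc' hcl <;> omega
    obtain ⟨rfl, rfl⟩ := hkj
    rcases r with ⟨(⟨k2, i⟩ | s), z2⟩
    · simpa only [A] using hr
    · simpa only [A] using hr
  · exfalso
    simp only [cls, bit] at hcl
    split_ifs at hcl <;> omega
  · exfalso
    simp only [cls, bit] at hcl
    split_ifs at hcl <;> omega
  · simp only [A] at hc hc'
    obtain ⟨rfl, -⟩ := hc
    obtain ⟨rfl, -⟩ := hc'
    simp only [cls] at hcl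
    have hle : (z : ℕ) ≤ z' := ckey_lt_same hlt
    rcases r with ⟨(⟨k2, i⟩ | s), z2⟩
    · simp only [A, LoC, Hi] at hr ⊢
      rw [← hcl]; exact hr
    · simp only [A] at hr ⊢
      exact ⟨hr.1, M_mono_right hle hr.2⟩

/-- Two rows of the same class adjacent to one core column are comparable. -/
lemma row_dom {g : ℕ} {t : Fin (2 * g + 2)} {l : Fin (2 ^ (g + 1))} {r r' : Idx g}
    (hr : A g r (Sum.inr t, l)) (hr' : A g r' (Sum.inr t, l)) (hcl : cls g r = cls g r')
    (hlt : klt (keyR g r) (keyR g r')) (c : Idx g) (hc : A g r' c) : A g r c := by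
  rcases r with ⟨(⟨k, j⟩ | s), z⟩ <;> rcases r' with ⟨(⟨k', j'⟩ | s'), z'⟩
  · have hkj : k = k' ∧ j = j' := by
      simp only [A, Hi, LoC, cls] at hr hr' hcl
      have := k.2
      have := k'.2
      refine ⟨Fin.ext ?_, Fin.ext ?_⟩ <;> split_ifs at hr hr' hcl <;> omega
    obtain ⟨rfl, rfl⟩ := hkj
    rcases c with ⟨(⟨k2, i⟩ | s), z2⟩
    · simpa only [A] using hc
    · simpa only [A] using hc
  · exfalso
    simp only [cls, bit] at hcl
    split_ifs at hcl <;> omega
  · exfalso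
    simp only [cls, bit] at hcl
    split_ifs at hcl <;> omega
  · simp only [A] at hr hr'
    obtain ⟨rfl, -⟩ := hr
    obtain ⟨rfl, -⟩ := hr'
    simp only [cls] at hcl
    have hle : (z : ℕ) ≤ z' := ckey_lt_same hlt
    rcases c with ⟨(⟨k2, i⟩ | s), z2⟩
    · simp only [A, LoR, Hi] at hc ⊢
      rw [hcl]; exact hc
    · simp only [A] at hc ⊢
      exact ⟨hc.1, M_mono_left hle hc.2⟩

/-- An abstract copy, indexed by natural numbers below 66. -/
structure IsCopy (g : ℕ) (φ ψ : ℕ → Idx g) : Prop where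
  row_lt : ∀ i j, i < j → j < 66 → klt (keyR g (φ i)) (keyR g (φ j))
  col_lt : ∀ i j, i < j → j < 66 → klt (keyC g (ψ i)) (keyC g (ψ j))
  entry : ∀ i j, i < 66 → j < 66 → (A g (φ i) (ψ j) ↔ Hp i j)

lemma pigeon (f : ℕ → ℕ) (hf : ∀ i, f i < 16) : ∃ i j, i < j ∧ j < 17 ∧ f i = f j := by
  obtain ⟨i, hi, j, hj, hne, he⟩ := Finset.exists_ne_map_eq_of_card_lt_of_maps_to
    (s := Finset.range 17) (t := Finset.range 16) (by simp) (f := f)
    (fun i _ => by simpa using hf i)
  simp only [Finset.mem_range] at hi hj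
  rcases lt_or_gt_of_ne hne with h | h
  · exact ⟨i, j, h, hj, he⟩
  · exact ⟨j, i, h, hi, he.symm⟩

lemma IsCopy.row63 {g : ℕ} {φ ψ : ℕ → Idx g} (h : IsCopy g φ ψ) :
    ∃ k i z, φ 63 = (Sum.inl (k, i), z) := by
  rcases h63 : φ 63 with ⟨(⟨k, i⟩ | t), z⟩
  · exact ⟨k, i, z, rfl⟩
  · exfalso
    obtain ⟨i, j, hij, hj, he⟩ := pigeon (fun j => cls g (ψ j)) (fun j => cls_lt g _)
    have h1 : A g (φ 63) (ψ i) := (h.entry 63 i (by omega) (by omega)).2 (by unfold Hp; omega)
    have h2 : A g (φ 63) (ψ j) := (h.entry 63 j (by omega) (by omega)).2 (by unfold Hp; omega)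
    rw [h63] at h1 h2
    have h3 : A g (φ i) (ψ i) := (h.entry i i (by omega) (by omega)).2 (by unfold Hp; omega)
    have h4 := col_dom h1 h2 he (h.col_lt i j hij (by omega)) _ h3
    have h5 := (h.entry i j (by omega) (by omega)).1 h4
    unfold Hp at h5; omega

lemma IsCopy.col63 {g : ℕ} {φ ψ : ℕ → Idx g} (h : IsCopy g φ ψ) :
    ∃ k i z, ψ 63 = (Sum.inl (k, i), z) := by
  rcases h63 : ψ 63 with ⟨(⟨k, i⟩ | t), z⟩
  · exact ⟨k, i, z, rfl⟩
  · exfalso
    obtain ⟨i, j, hij, hj, he⟩ := pigeon (fun j => cls g (φ j)) (fun j => cls_lt g _)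
    have h1 : A g (φ i) (ψ 63) := (h.entry i 63 (by omega) (by omega)).2 (by unfold Hp; omega)
    have h2 : A g (φ j) (ψ 63) := (h.entry j 63 (by omega) (by omega)).2 (by unfold Hp; omega)
    rw [h63] at h1 h2
    have h3 : A g (φ j) (ψ j) := (h.entry j j (by omega) (by omega)).2 (by unfold Hp; omega)
    have h4 := row_dom h1 h2 he (h.row_lt i j hij (by omega)) _ h3
    have h5 := (h.entry i j (by omega) (by omega)).1 h4
    unfold Hp at h5; omega

/-- A strictly increasing sequence below 64 on `0..63` is the identity. -/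
lemma id_of_strict (a : ℕ → ℕ) (hlt : ∀ i, i < 63 → a i < a (i + 1)) (hb : a 63 < 64) :
    ∀ i, i < 64 → a i = i := by
  have h1 : ∀ i, i < 64 → i ≤ a i := by
    intro i
    induction i with
    | zero => intro _; omega
    | succ i ih => intro hi; have := ih (by omega); have := hlt i (by omega); omega
  have h2 : ∀ d, d < 64 → a (63 - d) ≤ 63 - d := by
    intro d
    induction d with
    | zero => intro _; simp; omega
    | succ d ih =>
      intro hd
      have := ih (by omega)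
      have h3 := hlt (63 - (d + 1)) (by omega)
      have h4 : 63 - (d + 1) + 1 = 63 - d := by omega
      rw [h4] at h3
      omega
  intro i hi
  have := h1 i hi
  have h3 := h2 (63 - i) (by omega)
  have h4 : 63 - (63 - i) = i := by omega
  rw [h4] at h3
  omega

/-- The marker part of a copy is mapped identically to one marker. -/
lemma IsCopy.marker {g : ℕ} {φ ψ : ℕ → Idx g} (h : IsCopy g φ ψ) :
    ∃ k : Fin (4 * g + 4), (∀ i (hi : i < 64), ∃ z, φ i = (Sum.inl (k, ⟨i, hi⟩), z)) ∧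
      (∀ i (hi : i < 64), ∃ z, ψ i = (Sum.inl (k, ⟨i, hi⟩), z)) := by
  obtain ⟨k, a, z, h63⟩ := h.row63
  obtain ⟨k', b, z', h63'⟩ := h.col63
  have hkk : k = k' := by
    have h1 : A g (φ 63) (ψ 63) := (h.entry 63 63 (by omega) (by omega)).2 (by unfold Hp; omega)
    rw [h63, h63'] at h1
    exact h1.1
  subst hkk
  -- all rows below 64 lie in marker `k`
  have hrow : ∀ i, i < 64 → ∃ a z, φ i = (Sum.inl (k, a), z) := by
    intro i hi
    rcases hφ : φ i with ⟨(⟨k2, a2⟩ | t), z2⟩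
    · have h1 : A g (φ i) (ψ 63) := (h.entry i 63 (by omega) (by omega)).2 (by unfold Hp; omega)
      rw [hφ, h63'] at h1
      obtain ⟨rfl, -⟩ := h1
      exact ⟨a2, z2, rfl⟩
    · exfalso
      rcases Nat.lt_or_ge i 63 with hlt | hge
      · have h1 := h.row_lt i 63 hlt (by omega)
        rw [hφ, h63] at h1
        have := ckey_fst g (2 * g + 1 - t) z2
        simp only [klt, keyR] at h1
        omega
      · have : i = 63 := by omega
        subst this
        rw [h63] at hφ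
        simp at hφ
  have hcol : ∀ i, i < 64 → ∃ a z, ψ i = (Sum.inl (k, a), z) := by
    intro i hi
    rcases hψ : ψ i with ⟨(⟨k2, a2⟩ | t), z2⟩
    · have h1 : A g (φ 63) (ψ i) := (h.entry 63 i (by omega) (by omega)).2 (by unfold Hp; omega)
      rw [hψ, h63] at h1
      obtain ⟨rfl, -⟩ := h1
      exact ⟨a2, z2, rfl⟩
    · exfalso
      rcases Nat.lt_or_ge i 63 with hlt | hge
      · have h1 := h.col_lt i 63 hlt (by omega)
        rw [hψ, h63'] at h1
        have := ckey_fst g t z2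
        simp only [klt, keyC] at h1
        omega
      · have : i = 63 := by omega
        subst this
        rw [h63'] at hψ
        simp at hψ
  choose! ar zr har using hrow
  choose! ac zc hac using hcol
  have hr : ∀ i, i < 64 → (ar i : ℕ) = i := by
    refine id_of_strict (fun i => (ar i : ℕ)) ?_ (ar 63).2
    intro i hi
    have h1 := h.row_lt i (i + 1) (by omega) (by omega)
    rw [har i (by omega), har (i + 1) (by omega)] at h1
    simp only [klt, keyR] at h1
    by_contra hn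
    have he : ar i = ar (i + 1) := Fin.ext (by omega)
    -- twin rows, but the pattern rows differ
    have hj : ∃ j, j < 64 ∧ Hp (i + 1) j ∧ ¬ Hp i j := by
      rcases Nat.lt_or_ge i 62 with h2 | h2
      · exact ⟨i + 1, by omega, by unfold Hp; omega, by unfold Hp; omega⟩
      · exact ⟨0, by omega, by unfold Hp; omega, by unfold Hp; omega⟩
    obtain ⟨j, hj, hj1, hj2⟩ := hj
    have h3 := (h.entry (i + 1) j (by omega) (by omega)).2 hj1
    apply hj2
    apply (h.entry i j (by omega) (by omega)).1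
    rw [har (i + 1) (by omega), hac j hj] at h3
    rw [har i (by omega), hac j hj, he]
    simpa only [A] using h3
  have hc : ∀ i, i < 64 → (ac i : ℕ) = i := by
    refine id_of_strict (fun i => (ac i : ℕ)) ?_ (ac 63).2
    intro i hi
    have h1 := h.col_lt i (i + 1) (by omega) (by omega)
    rw [hac i (by omega), hac (i + 1) (by omega)] at h1
    simp only [klt, keyC] at h1
    by_contra hn
    have he : ac i = ac (i + 1) := Fin.ext (by omega)
    have hj : ∃ j, j < 64 ∧ Hp j (i + 1) ∧ ¬ Hp j i := by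
      rcases Nat.lt_or_ge i 62 with h2 | h2
      · exact ⟨i + 1, by omega, by unfold Hp; omega, by unfold Hp; omega⟩
      · exact ⟨0, by omega, by unfold Hp; omega, by unfold Hp; omega⟩
    obtain ⟨j, hj, hj1, hj2⟩ := hj
    have h3 := (h.entry j (i + 1) (by omega) (by omega)).2 hj1
    apply hj2
    apply (h.entry j i (by omega) (by omega)).1
    rw [hac (i + 1) (by omega), har j hj] at h3
    rw [hac i (by omega), har j hj, he]
    simpa only [A] using h3
  refine ⟨k, fun i hi => ⟨zr i, ?_⟩, fun i hi => ⟨zc i, ?_⟩⟩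
  · rw [har i hi]
    have : ar i = ⟨i, hi⟩ := Fin.ext (hr i hi)
    rw [this]
  · rw [hac i hi]
    have : ac i = ⟨i, hi⟩ := Fin.ext (hc i hi)
    rw [this]

lemma ckey_lt_le {g r r' l l' : ℕ} (h : klt (ckey g r l) (ckey g r' l')) :
    r = 0 ∨ r = 2 * g + 1 ∨ r' = 0 ∨ r' = 2 * g + 1 ∨ l ≤ l' := by
  unfold klt ckey at h
  split_ifs at h <;> simp at h <;> omega

/-- The arithmetic heart: only the middle constraint can be violated, and only on the diagonal. -/
lemma core_arith {g k t1 t2 s1 s2 l1 l2 m1 m2 : ℕ} (hl1 : l1 < 2 ^ (g + 1))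
    (hl2 : l2 < 2 ^ (g + 1)) (hm1 : m1 < 2 ^ (g + 1)) (hm2 : m2 < 2 ^ (g + 1))
    (h1 : Hi g k t1 l1) (h2 : LoR g k t2 l2) (h3 : LoC g k s1 m1) (h4 : Hi g k s2 m2)
    (h5 : t2 = s1 ∧ M g t2 l2 m1) (h6 : ¬ (t1 = s2 ∧ M g t1 l1 m2))
    (h7 : klt (ckey g (2 * g + 1 - t1) l1) (ckey g (2 * g + 1 - t2) l2))
    (h8 : klt (ckey g s1 m1) (ckey g s2 m2)) :
    t1 = g + 1 ∧ t2 = g ∧ s1 = g ∧ s2 = g + 1 ∧ l1 / 2 = m1 / 2 ∧ l2 / 2 = m1 / 2 ∧
      m2 / 2 = m1 / 2 := by
  unfold Hi at h1 h4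
  unfold LoR at h2
  unfold LoC at h3
  by_cases hk : k / 2 ≤ 2 * g
  swap
  · simp only [hk, if_false] at h1 h2 h3 h4
    omega
  simp only [hk, if_true] at h1 h2 h3 h4
  obtain ⟨u, hu⟩ : ∃ u, u = k / 2 := ⟨_, rfl⟩
  rw [← hu] at h1 h2 h3 h4 hk
  obtain ⟨rfl, h1⟩ := h1
  obtain ⟨rfl, h2⟩ := h2
  obtain ⟨rfl, h3⟩ := h3
  obtain ⟨rfl, h4⟩ := h4
  have h5 := h5.2
  have h6 : ¬ M g (s1 + 1) l1 m2 := fun hh => h6 ⟨rfl, hh⟩
  have h7 := ckey_lt_le h7
  have h8 := ckey_lt_le h8
  have z1 := P_zero hl1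
  have z2 := P_zero hl2
  have z3 := P_zero hm1
  have z4 := P_zero hm2
  -- monotonicity at the smaller of the two levels
  have hmono : ∀ j, (j = 0 ∨ (s1 ≠ 0 ∧ s1 ≠ 2 * g)) →
      P g j l1 ≤ P g j l2 ∧ P g j m1 ≤ P g j m2 := by
    intro j hj
    rcases hj with rfl | hj
    · omega
    · exact ⟨P_mono g j (by omega), P_mono g j (by omega)⟩
  rcases lt_trichotomy s1 g with hlt | heq | hgt
  · exfalso
    have e1 : lev g s1 = s1 := by unfold lev; split_ifs <;> omega
    have e2 : lev g (s1 + 1) = s1 + 1 := by unfold lev; split_ifs <;> omega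
    unfold M at h5 h6
    unfold bit at h1 h4
    rw [e1] at h5
    rw [e2] at h6 h1 h4
    rw [if_pos (by omega)] at h5 h6
    have := hmono s1 (by omega)
    have := P_succ (g := g) (j := s1) (by omega) l1
    have := P_succ (g := g) (j := s1) (by omega) m2
    have := h1 (by omega)
    have := h4 (by omega)
    omega
  · subst heq
    have e1 : lev s1 s1 = s1 := by unfold lev; split_ifs <;> omega
    have e2 : lev s1 (s1 + 1) = s1 := by unfold lev; split_ifs <;> omega
    unfold M at h5 h6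
    rw [e1] at h5
    rw [e2] at h6
    rw [if_pos (by omega)] at h5
    rw [if_neg (by omega)] at h6
    have h9 := hmono s1 (by omega)
    simp only [P_top] at h5 h6 h9
    omega
  · exfalso
    have e1 : lev g s1 = (2 * g - s1) + 1 := by unfold lev; split_ifs <;> omega
    have e2 : lev g (s1 + 1) = 2 * g - s1 := by unfold lev; split_ifs <;> omega
    unfold M at h5 h6
    unfold bit at h2 h3
    rw [e1] at h5 h2 h3
    rw [e2] at h6
    rw [if_neg (by omega)] at h5 h6
    have := hmono (2 * g - s1) (by omega)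
    have := P_succ (g := g) (j := 2 * g - s1) (by omega) l2
    have := P_succ (g := g) (j := 2 * g - s1) (by omega) m1
    have := h2 (by omega)
    have := h3 (by omega)
    omega

/-- Structure of the core part of any copy. -/
lemma IsCopy.core {g : ℕ} {φ ψ : ℕ → Idx g} (h : IsCopy g φ ψ) :
    ∃ l1 l2 m1 m2 : Fin (2 ^ (g + 1)),
      φ 64 = (Sum.inr ⟨g + 1, by omega⟩, l1) ∧ φ 65 = (Sum.inr ⟨g, by omega⟩, l2) ∧
      ψ 64 = (Sum.inr ⟨g, by omega⟩, m1) ∧ ψ 65 = (Sum.inr ⟨g + 1, by omega⟩, m2) ∧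
      (l1 : ℕ) / 2 = m1 / 2 ∧ (l2 : ℕ) / 2 = m1 / 2 ∧ (m2 : ℕ) / 2 = m1 / 2 := by
  obtain ⟨k, hr, hc⟩ := h.marker
  obtain ⟨zr0, hr0⟩ := hr 0 (by omega)
  obtain ⟨zr1, hr1⟩ := hr 1 (by omega)
  obtain ⟨zr2, hr2⟩ := hr 2 (by omega)
  obtain ⟨zr63, hr63⟩ := hr 63 (by omega)
  obtain ⟨zc0, hc0⟩ := hc 0 (by omega)
  obtain ⟨zc1, hc1⟩ := hc 1 (by omega)
  obtain ⟨zc2, hc2⟩ := hc 2 (by omega)
  obtain ⟨zc63, hc63⟩ := hc 63 (by omega)
  have hrowcore : ∀ i, 64 ≤ i → i < 66 → ∃ t l, φ i = (Sum.inr t, l) := by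
    intro i hi1 hi2
    rcases hφ : φ i with ⟨(⟨k2, a2⟩ | t), z2⟩
    · exfalso
      have h1 := h.row_lt 63 i (by omega) hi2
      rw [hφ, hr63] at h1
      simp only [klt, keyR] at h1
      have h2 : A g (φ i) (ψ (i - 64)) :=
        (h.entry i (i - 64) (by omega) (by omega)).2 (by unfold Hp; omega)
      obtain ⟨z3, h3⟩ := hc (i - 64) (by omega)
      rw [hφ, h3] at h2
      obtain ⟨rfl, -⟩ := h2
      have h4 : ¬ A g (φ i) (ψ 2) := fun hh => by
        have := (h.entry i 2 (by omega) (by omega)).1 hh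
        unfold Hp at this; omega
      apply h4
      rw [hφ, hc2]
      have := a2.2
      exact ⟨rfl, Or.inr (Or.inl (by omega))⟩
    · exact ⟨t, z2, rfl⟩
  have hcolcore : ∀ i, 64 ≤ i → i < 66 → ∃ t l, ψ i = (Sum.inr t, l) := by
    intro i hi1 hi2
    rcases hψ : ψ i with ⟨(⟨k2, a2⟩ | t), z2⟩
    · exfalso
      have h1 := h.col_lt 63 i (by omega) hi2
      rw [hψ, hc63] at h1
      simp only [klt, keyC] at h1
      have h2 : A g (φ (i - 64)) (ψ i) :=
        (h.entry (i - 64) i (by omega) (by omega)).2 (by unfold Hp; omega)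
      obtain ⟨z3, h3⟩ := hr (i - 64) (by omega)
      rw [hψ, h3] at h2
      obtain ⟨rfl, -⟩ := h2
      have h4 : ¬ A g (φ 2) (ψ i) := fun hh => by
        have := (h.entry 2 i (by omega) (by omega)).1 hh
        unfold Hp at this; omega
      apply h4
      rw [hψ, hr2]
      have := a2.2
      exact ⟨rfl, Or.inr (Or.inr (by omega))⟩
    · exact ⟨t, z2, rfl⟩
  obtain ⟨t1, l1, e1⟩ := hrowcore 64 (by omega) (by omega)
  obtain ⟨t2, l2, e2⟩ := hrowcore 65 (by omega) (by omega)
  obtain ⟨s1, m1, e3⟩ := hcolcore 64 (by omega) (by omega)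
  obtain ⟨s2, m2, e4⟩ := hcolcore 65 (by omega) (by omega)
  have h1 : Hi g k t1 l1 := by
    have : A g (φ 64) (ψ 0) := (h.entry 64 0 (by omega) (by omega)).2 (by unfold Hp; omega)
    rw [e1, hc0] at this
    simpa [A] using this
  have h2 : LoR g k t2 l2 := by
    have : A g (φ 65) (ψ 1) := (h.entry 65 1 (by omega) (by omega)).2 (by unfold Hp; omega)
    rw [e2, hc1] at this
    simpa [A] using this
  have h3 : LoC g k s1 m1 := by
    have : A g (φ 0) (ψ 64) := (h.entry 0 64 (by omega) (by omega)).2 (by unfold Hp; omega)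
    rw [e3, hr0] at this
    simpa [A] using this
  have h4 : Hi g k s2 m2 := by
    have : A g (φ 1) (ψ 65) := (h.entry 1 65 (by omega) (by omega)).2 (by unfold Hp; omega)
    rw [e4, hr1] at this
    simpa [A] using this
  have h5 : (t2 : ℕ) = s1 ∧ M g t2 l2 m1 := by
    have : A g (φ 65) (ψ 64) := (h.entry 65 64 (by omega) (by omega)).2 (by unfold Hp; omega)
    rw [e2, e3] at this
    exact ⟨congrArg Fin.val this.1, this.2⟩
  have h6 : ¬ ((t1 : ℕ) = s2 ∧ M g t1 l1 m2) := by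
    intro hh
    have : A g (φ 64) (ψ 65) := by
      rw [e1, e4]
      exact ⟨Fin.ext hh.1, hh.2⟩
    have := (h.entry 64 65 (by omega) (by omega)).1 this
    unfold Hp at this; omega
  have h7 := h.row_lt 64 65 (by omega) (by omega)
  have h8 := h.col_lt 64 65 (by omega) (by omega)
  rw [e1, e2] at h7
  rw [e3, e4] at h8
  obtain ⟨a1, a2, a3, a4, a5, a6, a7⟩ :=
    core_arith l1.2 l2.2 m1.2 m2.2 h1 h2 h3 h4 h5 h6 h7 h8
  refine ⟨l1, l2, m1, m2, ?_, ?_, ?_, ?_, a5, a6, a7⟩
  · rw [e1]; congr 2; exact Fin.ext a1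
  · rw [e2]; congr 2; exact Fin.ext a2
  · rw [e3]; congr 2; exact Fin.ext a3
  · rw [e4]; congr 2; exact Fin.ext a4

end Crest.Agent.R47
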